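import Vale.Agent.P043.Asm

namespace Vale.Agent.Results.P043.Aperiodic

open MeasureTheory Vale.Agent.P043

theorem result (d : ℕ) (hd : 3 ≤ d) :
    (∃ F : Finset (Fin d → ℤ), F.Nonempty ∧ (∃ A : Set (Fin d → ℤ), Tiles A F) ∧
      ∀ A : Set (Fin d → ℤ), Tiles A F → ¬ IsPeriodic A) ∧
    (∃ Ω : Set (Fin d → ℝ), Bornology.IsBounded Ω ∧ MeasurableSet Ω ∧ 0 < volume Ω ∧
      (∃ A : Set (Fin d → ℝ), RTiles A Ω) ∧
      ∀ A : Set (Fin d → ℝ), RTiles A Ω → ¬ RPeriodic A) := by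
  obtain ⟨F3, h3⟩ := good_three
  obtain ⟨F, hF⟩ := good_dim d hd F3 h3
  obtain ⟨F', hF', hr⟩ := rigid d (by omega) F hF
  exact ⟨⟨F, disc_of_good F hF⟩, euclid d F' hF' hr⟩

end Vale.Agent.Results.P043.Aperiodic
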